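import Mathlib

/-!
Shortest common superstring: the cycle-cover algorithm on instances whose strings have
only short borders.
-/

namespace Vale.Agent.Results.P333.BorderRatio

variable {α : Type*} [DecidableEq α]

/-- `T` is a common superstring of the family `S`: every member is a contiguous substring. -/
def IsSuperstring (S : Finset (List α)) (T : List α) : Prop := ∀ s ∈ S, s <:+: T

/-- The overlap of `s` and `t`: the largest `k`, smaller than both lengths, such that the last
`k` letters of `s` are the first `k` letters of `t`. -/
def ov (s t : List α) : ℕ :=
  Nat.findGreatest (fun k => s.drop (s.length - k) = t.take k) (min s.length t.length - 1)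

/-- The string obtained by merging a sequence of strings, each with the next one along their
overlap. -/
def chain : List (List α) → List α
  | [] => []
  | [s] => s
  | s :: t :: r => s.take (s.length - ov s t) ++ chain (t :: r)

/-- Sum of `|s| - ov s t` over consecutive members `s, t` of a sequence. -/
def pathWeight : List (List α) → ℕ
  | [] => 0
  | [_] => 0
  | s :: t :: r => (s.length - ov s t) + pathWeight (t :: r)

/-- Weight of a sequence read cyclically: the closing step from the last member back to the first
one is added. -/
def cycWeight : List (List α) → ℕ
  | [] => 0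
  | a :: r => pathWeight (a :: r) +
      (((a :: r).getLast (List.cons_ne_nil a r)).length - ov ((a :: r).getLast (List.cons_ne_nil a r)) a)

/-- A cycle cover of `S`: nonempty cyclic sequences in which every member of `S` occurs exactly
once in total, and nothing else occurs. -/
def IsCycleCover (S : Finset (List α)) (C : List (List (List α))) : Prop :=
  (∀ c ∈ C, c ≠ []) ∧ C.flatten.Nodup ∧ ∀ s, s ∈ C.flatten ↔ s ∈ S

/-- Total weight of a cycle cover. -/
def coverWeight (C : List (List (List α))) : ℕ := (C.map cycWeight).sum

/-- Open every cycle at its listed first member, merge it, and concatenate the results. -/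
def output (C : List (List (List α))) : List α := (C.map chain).flatten

theorem ov_spec (s t : List α) : s.drop (s.length - ov s t) = t.take (ov s t) := by
  unfold ov
  apply Nat.findGreatest_spec (P := fun k => s.drop (s.length - k) = t.take k) (m := 0) (Nat.zero_le _)
  simp

theorem ov_le (s t : List α) : ov s t ≤ min s.length t.length - 1 := Nat.findGreatest_le _

theorem ov_lt_left {s : List α} (t : List α) (hs : s ≠ []) : ov s t < s.length := by
  have h := ov_le s t
  have : 0 < s.length := List.length_pos_iff.mpr hs
  omega

theorem ov_lt_right (s : List α) {t : List α} (ht : t ≠ []) : ov s t < t.length := by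
  have h := ov_le s t
  have : 0 < t.length := List.length_pos_iff.mpr ht
  omega

theorem ov_le_left (s t : List α) : ov s t ≤ s.length := by
  have h := ov_le s t
  omega

theorem le_ov {s t : List α} {k : ℕ} (h1 : k < s.length) (h2 : k < t.length)
    (h : s.drop (s.length - k) = t.take k) : k ≤ ov s t := by
  unfold ov
  apply Nat.le_findGreatest (P := fun k => s.drop (s.length - k) = t.take k) _ h
  omega

theorem chain_length (a : List α) (r : List (List α)) :
    (chain (a :: r)).length
      = pathWeight (a :: r) + ((a :: r).getLast (List.cons_ne_nil a r)).length := by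
  induction r generalizing a with
  | nil => simp [chain, pathWeight]
  | cons t r ih =>
    have := ih t
    simp only [chain, pathWeight, List.length_append, List.length_take]
    rw [this, List.getLast_cons (List.cons_ne_nil t r)]
    have := ov_le_left a t
    omega

theorem head_isPrefix_chain (a : List α) (r : List (List α)) : a <+: chain (a :: r) := by
  induction r generalizing a with
  | nil => simp [chain]
  | cons t r ih =>
    have h1 := ih t
    have h2 : t.take (ov a t) <+: chain (t :: r) := (List.take_prefix _ _).trans h1
    have h3 : a = a.take (a.length - ov a t) ++ t.take (ov a t) := by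
      rw [← ov_spec, List.take_append_drop]
    simp only [chain]
    conv_lhs => rw [h3]
    exact (List.prefix_append_right_inj _).mpr h2

theorem last_isSuffix_chain (a : List α) (r : List (List α)) :
    (a :: r).getLast (List.cons_ne_nil a r) <:+ chain (a :: r) := by
  induction r generalizing a with
  | nil => simp [chain]
  | cons t r ih =>
    rw [List.getLast_cons (List.cons_ne_nil t r)]
    simp only [chain]
    exact (ih t).trans (List.suffix_append _ _)

theorem mem_isInfix_chain {c : List (List α)} {s : List α} (hs : s ∈ c) : s <:+: chain c := by
  induction c with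
  | nil => simp at hs
  | cons a r ih =>
    rcases List.mem_cons.mp hs with rfl | h
    · exact (head_isPrefix_chain _ _).isInfix
    · cases r with
      | nil => simp at h
      | cons t r =>
        simp only [chain]
        exact (ih h).trans (List.suffix_append _ _).isInfix


theorem cycWeight_pos {a : List α} (r : List (List α)) (ha : a ≠ []) : 0 < cycWeight (a :: r) := by
  cases r with
  | nil =>
    have := ov_lt_left a ha
    simp only [cycWeight, pathWeight, List.getLast_singleton]
    omega
  | cons t r =>
    have := ov_lt_left t ha
    simp only [cycWeight, pathWeight]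
    omega

theorem chain_length_eq (a : List α) (r : List (List α)) :
    (chain (a :: r)).length
      = cycWeight (a :: r) + ov ((a :: r).getLast (List.cons_ne_nil a r)) a := by
  rw [chain_length]
  have := ov_le_left ((a :: r).getLast (List.cons_ne_nil a r)) a
  simp only [cycWeight]
  omega

/-- The merged cycle has period equal to the cycle weight. -/
theorem chain_drop (a : List α) (r : List (List α)) :
    (chain (a :: r)).drop (cycWeight (a :: r))
      = (chain (a :: r)).take (ov ((a :: r).getLast (List.cons_ne_nil a r)) a) := by
  set b := (a :: r).getLast (List.cons_ne_nil a r) with hb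
  set σ := chain (a :: r) with hσ
  have hlen : σ.length = cycWeight (a :: r) + ov b a := chain_length_eq a r
  obtain ⟨x, hx⟩ := head_isPrefix_chain a r
  obtain ⟨y, hy⟩ := last_isSuffix_chain a r
  have hob : ov b a ≤ b.length := ov_le_left b a
  have hoa : ov b a ≤ a.length := by
    have := ov_le b a
    omega
  have h1 : σ.drop (cycWeight (a :: r)) = b.drop (b.length - ov b a) := by
    have hyl : y.length + b.length = σ.length := by
      rw [hσ, ← hy]; simp [hb]
    have : cycWeight (a :: r) = y.length + (b.length - ov b a) := by omega
    rw [this, hσ, ← hy, ← hb, List.drop_append]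
    simp
  have h2 : σ.take (ov b a) = a.take (ov b a) := by
    rw [hσ, ← hx, List.take_append_of_le_length hoa]
  rw [h1, h2, ov_spec]

theorem cycle_bound (p q : ℕ) (a : List α) (r : List (List α))
    (hb : ∀ u, u <+: a → u <:+ a → u ≠ a → q * a.length ≤ p * (a.length - u.length)) :
    q * (chain (a :: r)).length ≤ (p + q) * cycWeight (a :: r) := by
  set b := (a :: r).getLast (List.cons_ne_nil a r) with hbdef
  set w := cycWeight (a :: r) with hw
  have hlen : (chain (a :: r)).length = w + ov b a := chain_length_eq a r
  by_cases ha : a = []
  · have : ov b a = 0 := by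
      have := ov_le b a
      simp [ha] at this
      simpa [ha] using this
    rw [hlen, this]
    nlinarith
  have hapos : 0 < a.length := List.length_pos_iff.mpr ha
  have hwpos : 0 < w := cycWeight_pos r ha
  have ho : ov b a < a.length := ov_lt_right b ha
  have hqp : q ≤ p := by
    have := hb [] List.nil_prefix (List.nil_suffix) (fun h => ha h.symm)
    simp only [List.length_nil, Nat.sub_zero] at this
    exact Nat.le_of_mul_le_mul_right this hapos
  have key : q * ov b a ≤ p * w := by
    by_cases hwa : a.length ≤ w
    · calc q * ov b a ≤ q * w := Nat.mul_le_mul_left _ (by omega)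
        _ ≤ p * w := Nat.mul_le_mul_right _ hqp
    · rw [not_le] at hwa
      have hpre : a <+: chain (a :: r) := head_isPrefix_chain a r
      have hale : a.length ≤ (chain (a :: r)).length := hpre.length_le
      obtain ⟨x, hx⟩ := hpre
      have hdrop : a.drop w = a.take (a.length - w) := by
        have e1 : ((chain (a :: r)).drop w).take (a.length - w) = a.drop w := by
          rw [← hx, List.drop_append_of_le_length (by omega),
            List.take_append_of_le_length (by simp), List.take_of_length_le (by simp)]
        have e2 : (chain (a :: r)).take (a.length - w) = a.take (a.length - w) := by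
          rw [← hx, List.take_append_of_le_length (by omega)]
        rw [← e1, ← e2, hw, chain_drop, List.take_take]
        congr 1
        rw [← hbdef, ← hw]
        omega
      have h1 : a.drop w <+: a := by
        rw [hdrop]; exact List.take_prefix _ _
      have h2 : a.drop w <:+ a := List.drop_suffix _ _
      have h3 : a.drop w ≠ a := by
        intro h
        have := congrArg List.length h
        simp at this
        omega
      have := hb _ h1 h2 h3
      simp only [List.length_drop] at this
      have e : a.length - (a.length - w) = w := by omega
      rw [e] at this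
      calc q * ov b a ≤ q * a.length := Nat.mul_le_mul_left _ (by omega)
        _ ≤ p * w := this
  rw [hlen]
  nlinarith


/-- `s` occurs in `T` at position `i`. -/
def OccursAt (T s : List α) (i : ℕ) : Prop :=
  i + s.length ≤ T.length ∧ s = (T.drop i).take s.length

omit [DecidableEq α] in
theorem exists_occursAt {T s : List α} (h : s <:+: T) : ∃ i, OccursAt T s i := by
  obtain ⟨x, y, rfl⟩ := h
  refine ⟨x.length, by simp, ?_⟩
  simp [List.append_assoc]

omit [DecidableEq α] in
theorem occ_drop {T a : List α} {i j : ℕ} (ha : OccursAt T a i) (hij : i ≤ j) :
    a.drop (j - i) = (T.drop j).take (i + a.length - j) := by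
  have h := ha.2
  have e : a.drop (j - i) = ((T.drop i).take a.length).drop (j - i) := by rw [← h]
  rw [e, List.drop_take, List.drop_drop]
  have e1 : i + (j - i) = j := by omega
  have e2 : a.length - (j - i) = i + a.length - j := by omega
  rw [e1, e2]

theorem step_bound {T a t : List α} {i j : ℕ} (ha : OccursAt T a i) (ht : OccursAt T t j)
    (hij : i ≤ j) (h1 : ¬ a <:+: t) (h2 : ¬ t <:+: a) : a.length - ov a t + i ≤ j := by
  by_cases h : i + a.length ≤ j
  · omega
  rw [not_le] at h
  have hd := occ_drop ha hij
  have hlt : i < j := by
    by_contra hcon
    have hji : j = i := by omega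
    subst hji
    rcases le_total a.length t.length with hl | hl
    · apply h1
      have : a = t.take a.length := by
        conv_rhs => rw [ht.2]
        rw [List.take_take, min_eq_left hl]
        exact ha.2
      rw [this]
      exact (List.take_prefix _ _).isInfix
    · apply h2
      have : t = a.take t.length := by
        conv_rhs => rw [ha.2]
        rw [List.take_take, min_eq_left hl]
        exact ht.2
      rw [this]
      exact (List.take_prefix _ _).isInfix
  have hend : i + a.length < j + t.length := by
    by_contra hcon
    rw [not_lt] at hcon
    apply h2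
    have : t = (a.drop (j - i)).take t.length := by
      rw [hd, List.take_take, min_eq_left (by omega)]
      exact ht.2
    rw [this]
    exact (List.take_prefix _ _).isInfix.trans (List.drop_suffix _ _).isInfix
  have hk : i + a.length - j ≤ ov a t := by
    apply le_ov (by omega) (by omega)
    have e : a.length - (i + a.length - j) = j - i := by omega
    rw [e, hd]
    conv_rhs => rw [ht.2]
    rw [List.take_take, min_eq_left (by omega)]
  omega

theorem path_bound (T : List α) (pos : List α → ℕ) (a : List α) (r : List (List α))
    (hocc : ∀ s ∈ a :: r, OccursAt T s (pos s))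
    (hsort : (a :: r).Pairwise (fun x y => pos x ≤ pos y))
    (hff : (a :: r).Pairwise (fun x y => ¬ x <:+: y ∧ ¬ y <:+: x)) :
    pathWeight (a :: r) + pos a ≤ pos ((a :: r).getLast (List.cons_ne_nil a r)) := by
  induction r generalizing a with
  | nil => simp [pathWeight]
  | cons t r ih =>
    have h1 := ih t (fun s hs => hocc s (List.mem_cons_of_mem _ hs)) hsort.of_cons hff.of_cons
    have h2 : pos a ≤ pos t := List.rel_of_pairwise_cons hsort List.mem_cons_self
    have h3 := List.rel_of_pairwise_cons hff (List.mem_cons_self (a := t) (l := r))
    have h4 := step_bound (hocc a List.mem_cons_self)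
      (hocc t (List.mem_cons_of_mem _ List.mem_cons_self)) h2 h3.1 h3.2
    rw [List.getLast_cons (List.cons_ne_nil t r)]
    simp only [pathWeight]
    omega

theorem exists_cover_le (S : Finset (List α)) (hff : ∀ s ∈ S, ∀ t ∈ S, s <:+: t → s = t)
    (T : List α) (hT : IsSuperstring S T) :
    ∃ C, IsCycleCover S C ∧ coverWeight C ≤ T.length := by
  classical
  have hex : ∀ s : List α, ∃ i, s ∈ S → OccursAt T s i := by
    intro s
    by_cases hs : s ∈ S
    · obtain ⟨i, hi⟩ := exists_occursAt (hT s hs)
      exact ⟨i, fun _ => hi⟩
    · exact ⟨0, fun h => absurd h hs⟩
  choose pos hpos using hex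
  let rel : List α → List α → Prop := fun x y => pos x ≤ pos y
  have : Std.Total rel := ⟨fun x y => le_total (pos x) (pos y)⟩
  have : IsTrans (List α) rel := ⟨fun x y z h1 h2 => le_trans h1 h2⟩
  set l := S.toList.insertionSort rel with hl
  have hperm : l.Perm S.toList := List.perm_insertionSort rel _
  have hsort : l.Pairwise rel := List.pairwise_insertionSort rel _
  have hnd : l.Nodup := hperm.nodup_iff.mpr S.nodup_toList
  have hmem : ∀ s, s ∈ l ↔ s ∈ S := fun s => by rw [hperm.mem_iff, Finset.mem_toList]
  cases hlc : l with
  | nil =>
    refine ⟨[], ⟨by simp, by simp, ?_⟩, by simp [coverWeight]⟩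
    intro s
    rw [← hmem s, hlc]
    simp
  | cons a r =>
    refine ⟨[a :: r], ⟨by simp, by simpa [← hlc] using hnd, ?_⟩, ?_⟩
    · intro s
      rw [← hmem s, hlc]
      simp
    · rw [hlc] at hsort hnd hmem
      have hocc : ∀ s ∈ a :: r, OccursAt T s (pos s) := fun s hs => hpos s ((hmem s).mp hs)
      have hff' : (a :: r).Pairwise (fun x y => ¬ x <:+: y ∧ ¬ y <:+: x) := by
        have : (a :: r).Pairwise (fun x y => x ≠ y) := hnd
        refine List.Pairwise.imp_of_mem ?_ this
        intro x y hx hy hxy
        exact ⟨fun h => hxy (hff x ((hmem x).mp hx) y ((hmem y).mp hy) h),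
          fun h => hxy (hff y ((hmem y).mp hy) x ((hmem x).mp hx) h).symm⟩
      have h1 := path_bound T pos a r hocc hsort hff'
      have h2 := (hocc _ (List.getLast_mem (List.cons_ne_nil a r))).1
      simp only [coverWeight, List.map_cons, List.map_nil, List.sum_cons, List.sum_nil, cycWeight]
      omega

theorem output_bound (p q : ℕ) (C : List (List (List α)))
    (h : ∀ c ∈ C, q * (chain c).length ≤ (p + q) * cycWeight c) :
    q * (output C).length ≤ (p + q) * coverWeight C := by
  induction C with
  | nil => simp [output, coverWeight]
  | cons c C ih =>
    have h1 := h c List.mem_cons_self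
    have h2 := ih (fun c hc => h c (List.mem_cons_of_mem _ hc))
    simp only [output, coverWeight, List.map_cons, List.flatten_cons, List.length_append,
      List.sum_cons] at *
    nlinarith

theorem exists_min_cover (S : Finset (List α)) :
    ∃ C, IsCycleCover S C ∧ ∀ C', IsCycleCover S C' → coverWeight C ≤ coverWeight C' := by
  classical
  have h0 : IsCycleCover S (S.toList.map (fun s => [s])) := by
    have e : (S.toList.map (fun s => [s])).flatten = S.toList := by
      induction S.toList with
      | nil => simp
      | cons a l ih => simp [ih]
    refine ⟨by simp, by rw [e]; exact S.nodup_toList, fun s => by rw [e, Finset.mem_toList]⟩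
  have hex : ∃ n, ∃ C, IsCycleCover S C ∧ coverWeight C = n := ⟨_, _, h0, rfl⟩
  obtain ⟨C, hC, hn⟩ := Nat.find_spec hex
  refine ⟨C, hC, fun C' hC' => ?_⟩
  rw [hn]
  exact Nat.find_min' hex ⟨C', hC', rfl⟩

/-- Main theorem. `S` is any finite family of strings, `S'` is what is left after discarding
the members that are substrings of other members.  Suppose every border `u` (a string that is
both an initial and a final segment, other than `s` itself) of every `s` in `S'` satisfies
`q |s| ≤ p (|s| - |u|)`.  Then minimum-weight cycle covers of `S'` exist, and opening and
concatenating the cycles of any of them gives a common superstring of `S` of length at most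
`(1 + p / q)` times the length of any common superstring. -/
theorem result (p q : ℕ) (S S' : Finset (List α))
    (hS' : ∀ s, s ∈ S' ↔ s ∈ S ∧ ∀ t ∈ S, s <:+: t → s = t)
    (hb : ∀ s ∈ S', ∀ u, u <+: s → u <:+ s → u ≠ s → q * s.length ≤ p * (s.length - u.length)) :
    (∃ C, IsCycleCover S' C ∧ ∀ C', IsCycleCover S' C' → coverWeight C ≤ coverWeight C') ∧
    ∀ C, IsCycleCover S' C → (∀ C', IsCycleCover S' C' → coverWeight C ≤ coverWeight C') →
      IsSuperstring S (output C) ∧
        ∀ T, IsSuperstring S T → q * (output C).length ≤ (p + q) * T.length := by
  refine ⟨exists_min_cover S', fun C hC hmin => ?_⟩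
  constructor
  · intro s hs
    classical
    obtain ⟨t, ht, hmax⟩ := Finset.exists_max_image (S.filter (fun t => s <:+: t))
      List.length ⟨s, by simp [hs]⟩
    rw [Finset.mem_filter] at ht
    have htS' : t ∈ S' := by
      rw [hS']
      refine ⟨ht.1, fun t' ht' htt' => ?_⟩
      have := hmax t' (by rw [Finset.mem_filter]; exact ⟨ht', ht.2.trans htt'⟩)
      exact htt'.eq_of_length_le this
    have : t ∈ C.flatten := (hC.2.2 t).mpr htS'
    obtain ⟨c, hc, htc⟩ := List.mem_flatten.mp this
    have h1 : t <:+: chain c := mem_isInfix_chain htc
    have h2 : chain c <:+: output C := List.infix_of_mem_flatten (List.mem_map_of_mem hc)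
    exact ht.2.trans (h1.trans h2)
  · intro T hT
    have hT' : IsSuperstring S' T := fun s hs => hT s ((hS' s).mp hs).1
    have hff : ∀ s ∈ S', ∀ t ∈ S', s <:+: t → s = t :=
      fun s hs t ht h => ((hS' s).mp hs).2 t ((hS' t).mp ht).1 h
    obtain ⟨C', hC', hw⟩ := exists_cover_le S' hff T hT'
    have h1 : q * (output C).length ≤ (p + q) * coverWeight C := by
      apply output_bound
      intro c hc
      cases c with
      | nil => exact absurd rfl (hC.1 _ hc)
      | cons a r =>
        apply cycle_bound
        apply hb
        rw [← hC.2.2]
        exact List.mem_flatten.mpr ⟨_, hc, List.mem_cons_self⟩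
    calc q * (output C).length ≤ (p + q) * coverWeight C := h1
      _ ≤ (p + q) * coverWeight C' := Nat.mul_le_mul_left _ (hmin C' hC')
      _ ≤ (p + q) * T.length := Nat.mul_le_mul_left _ hw

end Vale.Agent.Results.P333.BorderRatio
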